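import Mathlib

/-!
Mixing of all orders for transformations (and group actions) that possess an invariant generating
lattice of sets with pairwise nonnegative correlations.
-/

open MeasureTheory Filter Set
open scoped Topology BigOperators

namespace Vale.Agent.Results.P102.PositiveLattice

variable {Ω : Type*} [MeasurableSpace Ω]

/-- The `n`-th iterate, `n ∈ ℤ`, of an invertible bimeasurable map. -/
def iter (T : Ω ≃ᵐ Ω) (n : ℤ) : Ω → Ω := ⇑((T.toEquiv : Equiv.Perm Ω) ^ n)

/-- `T` is mixing: `μ (A ∩ T⁻ⁿ B) → μ A * μ B` as `|n| → ∞`, for all measurable `A`, `B`. -/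
def IsMixing (T : Ω ≃ᵐ Ω) (μ : Measure Ω) : Prop :=
  ∀ A B : Set Ω, MeasurableSet A → MeasurableSet B →
    Tendsto (fun n : ℤ => μ.real (A ∩ iter T n ⁻¹' B)) cofinite (𝓝 (μ.real A * μ.real B))

/-- `T` is mixing of order `k` (`k` sets): `μ (⋂ i, T^{-tᵢ} Aᵢ) → ∏ μ Aᵢ` when all the gaps
`tⱼ - tᵢ`, `i < j`, tend to `+∞`. -/
def IsMixingOfOrder (T : Ω ≃ᵐ Ω) (μ : Measure Ω) (k : ℕ) : Prop :=
  ∀ A : Fin k → Set Ω, (∀ i, MeasurableSet (A i)) → ∀ ε > 0, ∃ N : ℕ, ∀ t : Fin k → ℤ,
    (∀ i j, i < j → (N : ℤ) ≤ t j - t i) →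
      |μ.real (⋂ i, iter T (t i) ⁻¹' A i) - ∏ i, μ.real (A i)| < ε

/-- An action of a group `G` on `(Ω, μ)` is mixing: `μ (A ∩ g⁻¹ B) → μ A * μ B` as `g → ∞`
(that is, along the cofinite filter of `G`). -/
def IsMixingAction (G : Type*) [Group G] [MulAction G Ω] (μ : Measure Ω) : Prop :=
  ∀ A B : Set Ω, MeasurableSet A → MeasurableSet B →
    Tendsto (fun g : G => μ.real (A ∩ (fun x => g • x) ⁻¹' B)) cofinite
      (𝓝 (μ.real A * μ.real B))

/-- An action of a group `G` on `(Ω, μ)` is mixing of order `k`: `μ (⋂ i, gᵢ⁻¹ Aᵢ) → ∏ μ Aᵢ`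
when all the quotients `gⱼ gᵢ⁻¹`, `i ≠ j`, leave every finite subset of `G`. -/
def IsMixingActionOfOrder (G : Type*) [Group G] [MulAction G Ω] (μ : Measure Ω) (k : ℕ) : Prop :=
  ∀ A : Fin k → Set Ω, (∀ i, MeasurableSet (A i)) → ∀ ε > 0, ∃ F : Set G, F.Finite ∧
    ∀ g : Fin k → G, (∀ i j, i ≠ j → g j * (g i)⁻¹ ∉ F) →
      |μ.real (⋂ i, (fun x => g i • x) ⁻¹' A i) - ∏ i, μ.real (A i)| < ε

/-- A family `𝒟` of measurable sets, closed under finite unions and intersections, any two
members of which are nonnegatively correlated, and which generates the `σ`-algebra up to null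
sets. -/
structure IsPositiveLattice (μ : Measure Ω) (𝒟 : Set (Set Ω)) : Prop where
  measurable : ∀ A ∈ 𝒟, MeasurableSet A
  inter : ∀ A ∈ 𝒟, ∀ B ∈ 𝒟, A ∩ B ∈ 𝒟
  union : ∀ A ∈ 𝒟, ∀ B ∈ 𝒟, A ∪ B ∈ 𝒟
  corr : ∀ A ∈ 𝒟, ∀ B ∈ 𝒟, μ A * μ B ≤ μ (A ∩ B)
  generates : ∀ A : Set Ω, MeasurableSet A →
    ∃ B : Set Ω, MeasurableSet[MeasurableSpace.generateFrom 𝒟] B ∧ A =ᵐ[μ] B

/-! ### Static inequality -/

section Static

variable (μ : Measure Ω)

/-- covariance of two sets -/
def cv (A B : Set Ω) : ℝ := μ.real (A ∩ B) - μ.real A * μ.real B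

lemma cv_comm (A B : Set Ω) : cv μ A B = cv μ B A := by
  unfold cv; rw [inter_comm, mul_comm]

variable [IsProbabilityMeasure μ]

lemma cv_add {A B C : Set Ω} (hA : MeasurableSet A) (hB : MeasurableSet B)
    (hC : MeasurableSet C) :
    cv μ (A ∩ B) C + cv μ (A ∪ B) C = cv μ A C + cv μ B C := by
  unfold cv
  have h1 : μ.real (A ∪ B) + μ.real (A ∩ B) = μ.real A + μ.real B :=
    measureReal_union_add_inter hB
  have h2 : μ.real ((A ∪ B) ∩ C) + μ.real ((A ∩ B) ∩ C) = μ.real (A ∩ C) + μ.real (B ∩ C) := by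
    have := measureReal_union_add_inter (μ := μ) (s := A ∩ C) (t := B ∩ C) (hB.inter hC)
    rw [← union_inter_distrib_right] at this
    have e : A ∩ C ∩ (B ∩ C) = A ∩ B ∩ C := by
      ext x; simp only [mem_inter_iff]; tauto
    rw [e] at this
    exact this
  have h3 : (μ.real (A ∪ B) + μ.real (A ∩ B)) * μ.real C
      = (μ.real A + μ.real B) * μ.real C := by rw [h1]
  linarith [h2, h3, add_mul (μ.real (A ∪ B)) (μ.real (A ∩ B)) (μ.real C),
    add_mul (μ.real A) (μ.real B) (μ.real C)]

variable {μ} {𝒟 : Set (Set Ω)}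

/-- working hypotheses for the static inequality: a lattice containing `univ`. -/
structure Good (μ : Measure Ω) (𝒟 : Set (Set Ω)) : Prop where
  measurable : ∀ A ∈ 𝒟, MeasurableSet A
  inter : ∀ A ∈ 𝒟, ∀ B ∈ 𝒟, A ∩ B ∈ 𝒟
  union : ∀ A ∈ 𝒟, ∀ B ∈ 𝒟, A ∪ B ∈ 𝒟
  univ_mem : univ ∈ 𝒟
  corr : ∀ A ∈ 𝒟, ∀ B ∈ 𝒟, 0 ≤ cv μ A B

lemma IsPositiveLattice.good (h : IsPositiveLattice μ 𝒟) : Good μ (insert univ 𝒟) where
  measurable := by
    rintro A (rfl | hA)
    · exact MeasurableSet.univ
    · exact h.measurable A hA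
  inter := by
    rintro A (rfl | hA) B (rfl | hB)
    · left; simp
    · right; simpa using hB
    · right; simpa using hA
    · right; exact h.inter A hA B hB
  union := by
    rintro A (rfl | hA) B (rfl | hB)
    · left; simp
    · left; simp
    · left; simp
    · right; exact h.union A hA B hB
  univ_mem := Or.inl rfl
  corr := by
    rintro A (rfl | hA) B (rfl | hB)
    · simp [cv]
    · simp [cv]
    · simp [cv]
    · unfold cv
      have := h.corr A hA B hB
      rw [sub_nonneg, measureReal_def, measureReal_def, measureReal_def, ← ENNReal.toReal_mul]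
      exact ENNReal.toReal_mono (measure_ne_top _ _) this

lemma Good.iInter_mem (h : Good μ 𝒟) {ι : Type*} (s : Finset ι) (A : ι → Set Ω)
    (hA : ∀ i ∈ s, A i ∈ 𝒟) : (⋂ i ∈ s, A i) ∈ 𝒟 := by
  classical
  induction s using Finset.induction_on with
  | empty => simpa using h.univ_mem
  | insert a s ha ih =>
    rw [Finset.set_biInter_insert]
    exact h.inter _ (hA a (Finset.mem_insert_self a s)) _
      (ih fun i hi => hA i (Finset.mem_insert_of_mem hi))

lemma Good.cv_iInter_le (h : Good μ 𝒟) {ι : Type*} (s : Finset ι) (A : ι → Set Ω)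
    (hA : ∀ i ∈ s, A i ∈ 𝒟) {C : Set Ω} (hC : C ∈ 𝒟) :
    cv μ (⋂ i ∈ s, A i) C ≤ ∑ i ∈ s, cv μ (A i) C := by
  classical
  induction s using Finset.induction_on with
  | empty => simp [cv]
  | insert a s ha ih =>
    rw [Finset.set_biInter_insert, Finset.sum_insert ha]
    have hAs : ∀ i ∈ s, A i ∈ 𝒟 := fun i hi => hA i (Finset.mem_insert_of_mem hi)
    have haD := hA a (Finset.mem_insert_self a s)
    have hE := h.iInter_mem s A hAs
    have h1 := cv_add μ (h.measurable _ haD) (h.measurable _ hE) (h.measurable _ hC)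
    have h2 := h.corr _ (h.union _ haD _ hE) _ hC
    have h3 := ih hAs
    linarith

lemma Good.bound (h : Good μ 𝒟) {ι : Type*} [DecidableEq ι] (s : Finset ι) (A : ι → Set Ω)
    (hA : ∀ i ∈ s, A i ∈ 𝒟) :
    0 ≤ μ.real (⋂ i ∈ s, A i) - ∏ i ∈ s, μ.real (A i) ∧
    μ.real (⋂ i ∈ s, A i) - ∏ i ∈ s, μ.real (A i) ≤
      ∑ i ∈ s, ∑ j ∈ s, if i = j then 0 else cv μ (A i) (A j) := by
  induction s using Finset.induction_on with
  | empty => simp
  | insert a s ha ih =>
    have hAs : ∀ i ∈ s, A i ∈ 𝒟 := fun i hi => hA i (Finset.mem_insert_of_mem hi)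
    have haD := hA a (Finset.mem_insert_self a s)
    have hE := h.iInter_mem s A hAs
    obtain ⟨ih1, ih2⟩ := ih hAs
    have hcv0 := h.corr _ haD _ hE
    have hcv1 : cv μ (A a) (⋂ i ∈ s, A i) ≤ ∑ i ∈ s, cv μ (A i) (A a) := by
      rw [cv_comm]; exact h.cv_iInter_le s A hAs haD
    have key : μ.real (⋂ i ∈ insert a s, A i) - ∏ i ∈ insert a s, μ.real (A i)
        = cv μ (A a) (⋂ i ∈ s, A i)
          + μ.real (A a) * (μ.real (⋂ i ∈ s, A i) - ∏ i ∈ s, μ.real (A i)) := by
      rw [Finset.set_biInter_insert, Finset.prod_insert ha]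
      unfold cv; ring
    have h0 : 0 ≤ μ.real (A a) := measureReal_nonneg
    have h1 : μ.real (A a) ≤ 1 := measureReal_le_one
    constructor
    · rw [key]; positivity
    · rw [key]
      have hsum : ∑ i ∈ insert a s, ∑ j ∈ insert a s, (if i = j then 0 else cv μ (A i) (A j))
          = ∑ i ∈ s, cv μ (A i) (A a) + ∑ j ∈ s, cv μ (A a) (A j)
            + ∑ i ∈ s, ∑ j ∈ s, (if i = j then 0 else cv μ (A i) (A j)) := by
        rw [Finset.sum_insert ha, Finset.sum_insert ha]
        have e1 : ∑ j ∈ s, (if a = j then 0 else cv μ (A a) (A j)) = ∑ j ∈ s, cv μ (A a) (A j) := by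
          refine Finset.sum_congr rfl fun j hj => ?_
          rw [if_neg]; rintro rfl; exact ha hj
        have e2 : ∑ i ∈ s, ∑ j ∈ insert a s, (if i = j then 0 else cv μ (A i) (A j))
            = ∑ i ∈ s, cv μ (A i) (A a)
              + ∑ i ∈ s, ∑ j ∈ s, (if i = j then 0 else cv μ (A i) (A j)) := by
          rw [← Finset.sum_add_distrib]
          refine Finset.sum_congr rfl fun i hi => ?_
          rw [Finset.sum_insert ha, if_neg]
          rintro rfl; exact ha hi
        rw [e1, e2]; simp only [if_true]; ring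
      rw [hsum]
      have h4 : 0 ≤ ∑ j ∈ s, cv μ (A a) (A j) :=
        Finset.sum_nonneg fun j hj => h.corr _ haD _ (hAs j hj)
      nlinarith [mul_le_mul_of_nonneg_right h1 ih1]

end Static

/-! ### From the lattice to the whole `σ`-algebra -/

section Extension

variable {μ : Measure Ω} [IsProbabilityMeasure μ] {𝒟 : Set (Set Ω)}

/-- Abstract extension lemma: convergence on a π-system containing `univ` implies convergence
on the generated `σ`-algebra. -/
lemma extension {J : Type*} (l : Filter J) {k : ℕ} (S : J → Fin k → Ω → Ω)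
    (hS : ∀ j i, MeasurePreserving (S j i) μ μ)
    (hm : ∀ A ∈ 𝒟, MeasurableSet A) (hint : ∀ A ∈ 𝒟, ∀ B ∈ 𝒟, A ∩ B ∈ 𝒟) (huniv : univ ∈ 𝒟)
    (hbase : ∀ A : Fin k → Set Ω, (∀ i, A i ∈ 𝒟) →
      Tendsto (fun j => μ.real (⋂ i, S j i ⁻¹' A i)) l (𝓝 (∏ i, μ.real (A i))))
    (s : Finset (Fin k)) (A : Fin k → Set Ω)
    (hAs : ∀ i ∈ s, MeasurableSet[MeasurableSpace.generateFrom 𝒟] (A i))
    (hAns : ∀ i ∉ s, A i ∈ 𝒟) :
    Tendsto (fun j => μ.real (⋂ i, S j i ⁻¹' A i)) l (𝓝 (∏ i, μ.real (A i))) := by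
  classical
  have hle : MeasurableSpace.generateFrom 𝒟 ≤ ‹MeasurableSpace Ω› :=
    MeasurableSpace.generateFrom_le hm
  induction s using Finset.induction_on generalizing A with
  | empty => exact hbase A fun i => hAns i (Finset.notMem_empty i)
  | insert a s ha ih =>
    -- all sets are measurable
    have hAm : ∀ i, MeasurableSet (A i) := by
      intro i
      by_cases hi : i ∈ insert a s
      · exact hle _ (hAs i hi)
      · exact hm _ (hAns i hi)
    set R : J → Set Ω := fun j => ⋂ i ∈ (Finset.univ.erase a), S j i ⁻¹' A i with hR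
    set c : ℝ := ∏ i ∈ Finset.univ.erase a, μ.real (A i) with hc
    have hRm : ∀ j, MeasurableSet (R j) := fun j =>
      Finset.measurableSet_biInter _ fun i _ => (hS j i).measurable (hAm i)
    have hsplit : ∀ (B : Set Ω) (j : J),
        (⋂ i, S j i ⁻¹' (Function.update A a B i)) = S j a ⁻¹' B ∩ R j := by
      intro B j
      ext x
      simp only [mem_iInter, mem_preimage, mem_inter_iff, hR, Finset.mem_erase,
        Finset.mem_univ, and_true]
      constructor
      · intro h
        refine ⟨by simpa using h a, fun i hi => ?_⟩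
        have := h i
        rwa [Function.update_of_ne hi] at this
      · rintro ⟨h1, h2⟩ i
        by_cases hi : i = a
        · subst hi; simpa using h1
        · rw [Function.update_of_ne hi]; exact h2 i hi
    have hprod : ∀ B : Set Ω, ∏ i, μ.real (Function.update A a B i) = μ.real B * c := by
      intro B
      rw [← Finset.mul_prod_erase Finset.univ _ (Finset.mem_univ a)]
      simp only [Function.update_self, hc]
      congr 1
      refine Finset.prod_congr rfl fun i hi => ?_
      rw [Function.update_of_ne (Finset.ne_of_mem_erase hi)]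
    have main : ∀ B : Set Ω, MeasurableSet[MeasurableSpace.generateFrom 𝒟] B →
        Tendsto (fun j => μ.real (S j a ⁻¹' B ∩ R j)) l (𝓝 (μ.real B * c)) := by
      have base : ∀ B ∈ 𝒟,
          Tendsto (fun j => μ.real (S j a ⁻¹' B ∩ R j)) l (𝓝 (μ.real B * c)) := by
        intro B hB
        have := ih (Function.update A a B) ?_ ?_
        · simp only [hsplit, hprod] at this
          exact this
        · intro i hi
          have hia : i ≠ a := by rintro rfl; exact ha hi
          rw [Function.update_of_ne hia]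
          exact hAs i (Finset.mem_insert_of_mem hi)
        · intro i hi
          by_cases hia : i = a
          · subst hia; simpa using hB
          · rw [Function.update_of_ne hia]
            exact hAns i (by simp [hia, hi])
      intro B hB
      refine MeasurableSpace.induction_on_inter (m := MeasurableSpace.generateFrom 𝒟)
        (C := fun B _ => Tendsto (fun j => μ.real (S j a ⁻¹' B ∩ R j)) l (𝓝 (μ.real B * c)))
        rfl (fun A hA B hB _ => hint A hA B hB) ?_ ?_ ?_ ?_ B hB
      · simp only [preimage_empty, empty_inter, measureReal_empty, zero_mul]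
        exact tendsto_const_nhds
      · exact fun t ht => base t ht
      · intro t ht iht
        have hu := base univ huniv
        have e : ∀ j, μ.real (S j a ⁻¹' tᶜ ∩ R j)
            = μ.real (S j a ⁻¹' univ ∩ R j) - μ.real (S j a ⁻¹' t ∩ R j) := by
          intro j
          have := measureReal_inter_add_sdiff (μ := μ) (s := R j)
            ((hS j a).measurable (hle _ ht))
          have e1 : S j a ⁻¹' tᶜ ∩ R j = R j \ S j a ⁻¹' t := by
            ext x; simp [and_comm]
          rw [e1, preimage_univ, univ_inter, inter_comm (S j a ⁻¹' t)]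
          linarith
        have e2 : μ.real tᶜ * c = μ.real univ * c - μ.real t * c := by
          rw [probReal_compl_eq_one_sub (hle _ ht), probReal_univ]; ring
        simp only [e, e2]
        exact hu.sub iht
      · intro f hd hf ihf
        have hdj : ∀ j, Pairwise (Function.onFun Disjoint fun n => S j a ⁻¹' f n ∩ R j) := by
          intro j m n hmn
          refine Disjoint.mono inter_subset_left inter_subset_left ?_
          exact Disjoint.preimage _ (hd hmn)
        have e : ∀ j, μ.real (S j a ⁻¹' (⋃ n, f n) ∩ R j)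
            = ∑' n, μ.real (S j a ⁻¹' f n ∩ R j) := by
          intro j
          rw [preimage_iUnion, iUnion_inter]
          have hmn : ∀ n, MeasurableSet (S j a ⁻¹' f n ∩ R j) := fun n =>
            ((hS j a).measurable (hle _ (hf n))).inter (hRm j)
          rw [measureReal_def, measure_iUnion (hdj j) hmn, ENNReal.tsum_toReal_eq]
          · rfl
          · exact fun n => measure_ne_top _ _
        have hsumm : Summable fun n => μ.real (f n) := by
          have h1 := measure_iUnion hd (fun n => hle _ (hf n)) (μ := μ)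
          have h2 : ∑' n, μ (f n) ≠ ⊤ := by rw [← h1]; exact measure_ne_top _ _
          exact ENNReal.summable_toReal h2
        have e2 : μ.real (⋃ n, f n) * c = ∑' n, μ.real (f n) * c := by
          rw [tsum_mul_right]
          congr 1
          rw [measureReal_def, measure_iUnion hd (fun n => hle _ (hf n)),
            ENNReal.tsum_toReal_eq]
          · rfl
          · exact fun n => measure_ne_top _ _
        simp only [e, e2]
        refine tendsto_tsum_of_dominated_convergence hsumm ihf ?_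
        refine Eventually.of_forall fun j n => ?_
        rw [Real.norm_of_nonneg measureReal_nonneg]
        calc μ.real (S j a ⁻¹' f n ∩ R j) ≤ μ.real (S j a ⁻¹' f n) :=
              measureReal_mono inter_subset_left
          _ = μ.real (f n) :=
              (hS j a).measureReal_preimage (hle _ (hf n)).nullMeasurableSet
    have hfin := main (A a) (hAs a (Finset.mem_insert_self a s))
    have hupd : Function.update A a (A a) = A := Function.update_eq_self a A
    have e3 := hprod (A a)
    rw [hupd] at e3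
    rw [e3]
    refine hfin.congr fun j => ?_
    rw [← hsplit (A a) j, hupd]

/-- The conclusion for arbitrary measurable sets. -/
lemma tendsto_of_lattice (h : IsPositiveLattice μ 𝒟) {J : Type*} (l : Filter J) {k : ℕ}
    (S : J → Fin k → Ω → Ω) (hS : ∀ j i, MeasurePreserving (S j i) μ μ)
    (hinv : ∀ j i, ∀ A ∈ 𝒟, S j i ⁻¹' A ∈ 𝒟)
    (hpair : ∀ i i' : Fin k, i ≠ i' → ∀ A B : Set Ω, MeasurableSet A → MeasurableSet B →
      Tendsto (fun j => μ.real (S j i ⁻¹' A ∩ S j i' ⁻¹' B)) l (𝓝 (μ.real A * μ.real B)))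
    (A : Fin k → Set Ω) (hA : ∀ i, MeasurableSet (A i)) :
    Tendsto (fun j => μ.real (⋂ i, S j i ⁻¹' A i)) l (𝓝 (∏ i, μ.real (A i))) := by
  classical
  have hg := h.good
  have hinv' : ∀ j i, ∀ A ∈ insert univ 𝒟, S j i ⁻¹' A ∈ insert univ 𝒟 := by
    rintro j i A (rfl | hA)
    · left; simp
    · right; exact hinv j i A hA
  have hbase : ∀ A : Fin k → Set Ω, (∀ i, A i ∈ insert univ 𝒟) →
      Tendsto (fun j => μ.real (⋂ i, S j i ⁻¹' A i)) l (𝓝 (∏ i, μ.real (A i))) := by
    intro A hA
    have hAm : ∀ i, MeasurableSet (A i) := fun i => hg.measurable _ (hA i)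
    rw [tendsto_iff_norm_sub_tendsto_zero]
    have hmeas : ∀ j i, μ.real (S j i ⁻¹' A i) = μ.real (A i) := fun j i =>
      (hS j i).measureReal_preimage (hAm i).nullMeasurableSet
    have hb : ∀ j, ‖μ.real (⋂ i, S j i ⁻¹' A i) - ∏ i, μ.real (A i)‖ ≤
        ∑ i, ∑ i', if i = i' then 0 else cv μ (S j i ⁻¹' A i) (S j i' ⁻¹' A i') := by
      intro j
      have := hg.bound Finset.univ (fun i => S j i ⁻¹' A i)
        (fun i _ => hinv' j i _ (hA i))
      simp only [Finset.mem_univ, iInter_true, hmeas] at this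
      rw [Real.norm_of_nonneg this.1]
      exact this.2
    refine squeeze_zero (fun j => norm_nonneg _) hb ?_
    have hlim : Tendsto (fun j => ∑ i, ∑ i',
        if i = i' then 0 else cv μ (S j i ⁻¹' A i) (S j i' ⁻¹' A i')) l
        (𝓝 (∑ _i : Fin k, ∑ _i' : Fin k, (0 : ℝ))) := by
      refine tendsto_finsetSum _ fun i _ => tendsto_finsetSum _ fun i' _ => ?_
      by_cases hii : i = i'
      · have hc : Tendsto (fun _ : J => (0 : ℝ)) l (𝓝 0) := tendsto_const_nhds
        simp only [if_pos hii]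
        exact hc
      · simp only [if_neg hii]
        unfold cv
        simp only [hmeas]
        have := (hpair i i' hii (A i) (A i') (hAm i) (hAm i')).sub_const
          (μ.real (A i) * μ.real (A i'))
        rwa [sub_self] at this
    simpa using hlim
  choose B hB hAB using fun i => h.generates (A i) (hA i)
  have hgen : MeasurableSpace.generateFrom 𝒟 ≤ MeasurableSpace.generateFrom (insert univ 𝒟) :=
    MeasurableSpace.generateFrom_mono (subset_insert _ _)
  have h1 := extension l S hS (fun A hA => hg.measurable A hA) hg.inter hg.univ_mem hbase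
    Finset.univ B (fun i _ => hgen _ (hB i)) (fun i hi => absurd (Finset.mem_univ i) hi)
  have h2 : ∀ i, μ.real (A i) = μ.real (B i) := fun i => measureReal_congr (hAB i)
  simp only [h2]
  refine h1.congr fun j => ?_
  refine measureReal_congr ?_
  refine (Filter.EventuallyEq.countable_iInter fun i => ?_)
  exact ((hS j i).quasiMeasurePreserving.preimage_ae_eq (hAB i)).symm

end Extension

/-! ### Dynamics -/

section Dynamics

variable {μ : Measure Ω} [IsProbabilityMeasure μ] {𝒟 : Set (Set Ω)}

theorem group_case {G : Type*} [Group G] [MulAction G Ω] [MeasurableConstSMul G Ω]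
    [SMulInvariantMeasure G Ω μ] (hmix : IsMixingAction G μ) (h : IsPositiveLattice μ 𝒟)
    (hinv : ∀ g : G, ∀ A ∈ 𝒟, (fun x => g • x) ⁻¹' A ∈ 𝒟) (k : ℕ) :
    IsMixingActionOfOrder G μ k := by
  classical
  intro A hA ε hε
  -- the filter on `k`-tuples
  let l : Filter (Fin k → G) :=
    ⨅ (F : {F : Set G // F.Finite}), 𝓟 {g | ∀ i j, i ≠ j → g j * (g i)⁻¹ ∉ F.1}
  have hdir : Directed (· ≥ ·) (fun F : {F : Set G // F.Finite} =>
      𝓟 {g : Fin k → G | ∀ i j, i ≠ j → g j * (g i)⁻¹ ∉ F.1}) := by
    intro F F'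
    refine ⟨⟨F.1 ∪ F'.1, F.2.union F'.2⟩, ?_, ?_⟩
    · simp only [ge_iff_le, le_principal_iff, mem_principal]
      exact fun g hg i j hij hmem => hg i j hij (Or.inl hmem)
    · simp only [ge_iff_le, le_principal_iff, mem_principal]
      exact fun g hg i j hij hmem => hg i j hij (Or.inr hmem)
  have hl : ∀ s : Set (Fin k → G), s ∈ l ↔
      ∃ F : Set G, F.Finite ∧ {g : Fin k → G | ∀ i j, i ≠ j → g j * (g i)⁻¹ ∉ F} ⊆ s := by
    intro s
    rw [mem_iInf_of_directed hdir]
    constructor
    · rintro ⟨F, hF⟩; exact ⟨F.1, F.2, hF⟩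
    · rintro ⟨F, hF, hs⟩; exact ⟨⟨F, hF⟩, hs⟩
  have hpres : ∀ g : G, MeasurePreserving (fun x : Ω => g • x) μ μ := fun g =>
    measurePreserving_smul g μ
  have key := tendsto_of_lattice h l (fun (g : Fin k → G) (i : Fin k) (x : Ω) => g i • x)
    (fun g i => hpres (g i)) (fun g i => hinv (g i)) ?_ A hA
  · have h1 := key (Metric.ball_mem_nhds _ hε)
    rw [mem_map, hl] at h1
    obtain ⟨F, hF, hs⟩ := h1
    refine ⟨F, hF, fun g hg => ?_⟩
    have := hs hg
    simpa [Real.dist_eq] using this
  · intro i i' hii A B hA hB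
    have h1 := hmix A B hA hB
    have e : ∀ g : Fin k → G, μ.real ((fun x => g i • x) ⁻¹' A ∩ (fun x => g i' • x) ⁻¹' B)
        = μ.real (A ∩ (fun x => (g i' * (g i)⁻¹) • x) ⁻¹' B) := by
      intro g
      have hm : MeasurableSet (A ∩ (fun x => (g i' * (g i)⁻¹) • x) ⁻¹' B) :=
        hA.inter ((measurable_const_smul _) hB)
      rw [← (hpres (g i)).measureReal_preimage hm.nullMeasurableSet]
      congr 1
      ext x
      simp [smul_smul]
    simp only [e]
    refine h1.comp ?_
    intro s hs
    rw [mem_cofinite] at hs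
    rw [mem_map, hl]
    refine ⟨sᶜ, hs, fun g hg => ?_⟩
    have := hg i i' hii
    simpa using this

lemma iter_add (T : Ω ≃ᵐ Ω) (m n : ℤ) (x : Ω) : iter T (m + n) x = iter T m (iter T n x) := by
  simp only [iter, zpow_add, Equiv.Perm.mul_apply]

lemma iter_measurePreserving (T : Ω ≃ᵐ Ω) (hT : MeasurePreserving T μ μ) (n : ℤ) :
    MeasurePreserving (iter T n) μ μ := by
  have hnat : ∀ (S : Ω ≃ᵐ Ω), MeasurePreserving S μ μ → ∀ n : ℕ,
      MeasurePreserving (iter S n) μ μ := by
    intro S hS n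
    have : iter S n = S^[n] := by
      unfold iter
      rw [zpow_natCast]
      exact (Equiv.Perm.iterate_eq_pow (S.toEquiv : Equiv.Perm Ω) n).symm
    rw [this]
    exact hS.iterate n
  rcases Int.eq_nat_or_neg n with ⟨m, rfl | rfl⟩
  · exact hnat T hT m
  · have h2 : iter T (-(m : ℤ)) = iter T.symm m := by
      unfold iter
      rw [zpow_neg, ← inv_zpow]
      rfl
    rw [h2]
    exact hnat T.symm (hT.symm T) m

theorem int_case (T : Ω ≃ᵐ Ω) (hT : MeasurePreserving T μ μ) (hmix : IsMixing T μ)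
    (h : IsPositiveLattice μ 𝒟) (hinv : ∀ A ∈ 𝒟, T ⁻¹' A ∈ 𝒟)
    (hinv' : ∀ A ∈ 𝒟, T.symm ⁻¹' A ∈ 𝒟) (k : ℕ) :
    IsMixingOfOrder T μ k := by
  classical
  intro A hA ε hε
  let l : Filter (Fin k → ℤ) :=
    ⨅ (N : ℕ), 𝓟 {t | ∀ i j, i < j → (N : ℤ) ≤ t j - t i}
  have hdir : Directed (· ≥ ·) (fun N : ℕ =>
      𝓟 {t : Fin k → ℤ | ∀ i j, i < j → (N : ℤ) ≤ t j - t i}) := by
    intro M N
    refine ⟨max M N, ?_, ?_⟩
    · simp only [ge_iff_le, le_principal_iff, mem_principal]
      intro t ht i j hij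
      have := ht i j hij
      push_cast at this
      exact le_trans (le_max_left _ _) this
    · simp only [ge_iff_le, le_principal_iff, mem_principal]
      intro t ht i j hij
      have := ht i j hij
      push_cast at this
      exact le_trans (le_max_right _ _) this
  have hl : ∀ s : Set (Fin k → ℤ), s ∈ l ↔
      ∃ N : ℕ, {t : Fin k → ℤ | ∀ i j, i < j → (N : ℤ) ≤ t j - t i} ⊆ s := by
    intro s
    rw [mem_iInf_of_directed hdir]
    rfl
  have hit : ∀ n : ℤ, MeasurePreserving (iter T n) μ μ := iter_measurePreserving T hT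
  have hinvn : ∀ n : ℤ, ∀ A ∈ 𝒟, iter T n ⁻¹' A ∈ 𝒟 := by
    intro n
    induction n using Int.induction_on with
    | zero =>
      intro A hA
      have : iter T 0 = id := by unfold iter; simp
      rw [this]; simpa using hA
    | succ n ih =>
      intro A hA
      have : iter T (n + 1) ⁻¹' A = T ⁻¹' (iter T n ⁻¹' A) := by
        ext x
        simp only [mem_preimage]
        rw [iter_add]
        have h1 : iter T 1 x = T x := by unfold iter; rw [zpow_one]; rfl
        rw [h1]
      rw [this]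
      exact hinv _ (ih A hA)
    | pred n ih =>
      intro A hA
      have : iter T (-n - 1) ⁻¹' A = T.symm ⁻¹' (iter T (-n) ⁻¹' A) := by
        ext x
        simp only [mem_preimage]
        rw [sub_eq_add_neg, iter_add]
        have h1 : iter T (-1) x = T.symm x := by unfold iter; rw [zpow_neg_one]; rfl
        rw [h1]
      rw [this]
      exact hinv' _ (ih A hA)
  have key := tendsto_of_lattice h l (fun (t : Fin k → ℤ) (i : Fin k) => iter T (t i))
    (fun t i => hit (t i)) (fun t i => hinvn (t i)) ?_ A hA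
  · have h1 := key (Metric.ball_mem_nhds _ hε)
    rw [mem_map, hl] at h1
    obtain ⟨N, hs⟩ := h1
    refine ⟨N, fun t ht => ?_⟩
    have := hs ht
    simpa [Real.dist_eq] using this
  · intro i i' hii A B hA hB
    have h1 := hmix A B hA hB
    have e : ∀ t : Fin k → ℤ, μ.real (iter T (t i) ⁻¹' A ∩ iter T (t i') ⁻¹' B)
        = μ.real (A ∩ iter T (t i' - t i) ⁻¹' B) := by
      intro t
      have hm : MeasurableSet (A ∩ iter T (t i' - t i) ⁻¹' B) :=
        hA.inter ((hit _).measurable hB)
      rw [← (hit (t i)).measureReal_preimage hm.nullMeasurableSet]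
      congr 1
      ext x
      simp only [mem_inter_iff, mem_preimage]
      rw [← iter_add, sub_add_cancel]
    simp only [e]
    refine h1.comp ?_
    intro s hs
    rw [mem_cofinite] at hs
    rw [mem_map, hl]
    -- a finite set of integers is bounded
    obtain ⟨N, hN⟩ : ∃ N : ℕ, ∀ z ∈ sᶜ, |z| < (N : ℤ) := by
      obtain ⟨M, hM⟩ := (hs.image (fun z : ℤ => |z|)).bddAbove
      refine ⟨(M + 1).toNat, fun z hz => ?_⟩
      have := hM (mem_image_of_mem (fun z : ℤ => |z|) hz)
      have h2 : M + 1 ≤ ((M + 1).toNat : ℤ) := Int.self_le_toNat _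
      have h3 : |z| ≤ M := this
      linarith
    refine ⟨N, fun t ht => ?_⟩
    by_contra hcon
    have hz : t i' - t i ∈ sᶜ := hcon
    have hlt := hN _ hz
    rcases lt_or_gt_of_ne hii with hlt' | hgt'
    · have h3 := ht i i' hlt'
      have := le_abs_self (t i' - t i)
      linarith
    · have h3 := ht i' i hgt'
      have := neg_abs_le (t i' - t i)
      linarith

end Dynamics

/-- **Main result.**  Let `(Ω, μ)` be a probability space.
(1) If `T` is an invertible mixing `μ`-preserving transformation and some family `𝒟` of sets,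
invariant under `T` and `T⁻¹`, closed under finite unions and intersections and generating the
`σ`-algebra modulo `μ`, satisfies `μ A * μ B ≤ μ (A ∩ B)` for all `A, B ∈ 𝒟`, then `T` is mixing
of all orders.
(2) The same holds for measure-preserving actions of an arbitrary group. -/
theorem result :
    (∀ (Ω : Type) [MeasurableSpace Ω] (μ : Measure Ω) [IsProbabilityMeasure μ] (T : Ω ≃ᵐ Ω)
      (𝒟 : Set (Set Ω)), MeasurePreserving T μ μ → IsMixing T μ → IsPositiveLattice μ 𝒟 →
      (∀ A ∈ 𝒟, T ⁻¹' A ∈ 𝒟) → (∀ A ∈ 𝒟, T.symm ⁻¹' A ∈ 𝒟) →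
      ∀ k : ℕ, IsMixingOfOrder T μ k) ∧
    (∀ (G : Type) [Group G] (Ω : Type) [MeasurableSpace Ω] [MulAction G Ω]
      [MeasurableConstSMul G Ω] (μ : Measure Ω) [IsProbabilityMeasure μ]
      [SMulInvariantMeasure G Ω μ] (𝒟 : Set (Set Ω)), IsMixingAction G μ →
      IsPositiveLattice μ 𝒟 → (∀ g : G, ∀ A ∈ 𝒟, (fun x => g • x) ⁻¹' A ∈ 𝒟) →
      ∀ k : ℕ, IsMixingActionOfOrder G μ k) :=
  ⟨fun _ _ _ _ T _ hT hmix h h1 h2 k => int_case T hT hmix h h1 h2 k,
    fun _ _ _ _ _ _ _ _ _ _ hmix h hinv k => group_case hmix h hinv k⟩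

end Vale.Agent.Results.P102.PositiveLattice
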